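import Vale.Agent.P088.R2.H551.B.Spec
import Vale.Agent.P088.R2.H169.BLIN
import Vale.Agent.P088.H292.GEn

/-!
# P088, row JB-LIN: the data of two pairs determine the constant metrics approximately
-/

open MeasureTheory Set Filter Topology
open scoped ContDiff Matrix

noncomputable section

namespace Vale.Agent.P088.PJ.Bd.H932

open Vale.Agent.P088.LR Vale.Agent.P088.LR.B Vale.Agent.P088.LR.CF Vale.Agent.P088.LR.U
  Vale.Agent.P088.LR.H158 Vale.Agent.P088.H292.UP Vale.Agent.P088.H589 Vale.Agent.P088.H639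
open Vale.Agent.P088.HY.Bd (CoG qf169 qf_dot169 qf_nonneg169 qf_coer169 qf_pert169 lf169 lf_sm169
  pd_lf169 sl_lf169 sg_near169 qf_inj169 symm_of_posDef169 CoG_lim169)

variable {n N : ℕ}

/-! ## Forms on vector valued covectors -/

/-- The real form `∑_l (S(Re q_l) + S(Im q_l))`. -/
def QS (S : Matrix (Fin n) (Fin n) ℝ) (q : Fin n → Fin N → ℂ) : ℝ :=
  ∑ l, (qf169 S (fun i => (q i l).re) + qf169 S (fun i => (q i l).im))

theorem qf_QS (S : Matrix (Fin n) (Fin n) ℝ) (q : Fin n → Fin N → ℂ) : (qf S q q).re = QS S q := by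
  rw [qf_re]
  unfold QS qf169
  refine Finset.sum_congr rfl fun b _ => ?_
  congr 1 <;>
    exact Finset.sum_congr rfl fun i _ => Finset.sum_congr rfl fun j _ => by ring

theorem qf169_add_le {S : Matrix (Fin n) (Fin n) ℝ} (hS : S.PosSemidef) {θ : ℝ} (hθ : 0 < θ)
    (a b : V n) :
    qf169 S (fun i => a i + b i) ≤ (1 + θ) * qf169 S a + (1 + 1 / θ) * qf169 S b := by
  have h := qf_nonneg169 hS (fun i => θ * a i - b i)
  have e : qf169 S (fun i => θ * a i - b i) = θ * ((1 + θ) * qf169 S a +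
      (1 + 1 / θ) * qf169 S b - qf169 S (fun i => a i + b i)) := by
    unfold qf169
    simp only [Finset.mul_sum, ← Finset.sum_add_distrib, ← Finset.sum_sub_distrib]
    refine Finset.sum_congr rfl fun i _ => Finset.sum_congr rfl fun j _ => ?_
    field_simp
    ring
  rw [e] at h
  have h2 := (mul_nonneg_iff_of_pos_left hθ).1 h
  linarith

theorem QS_nonneg {S : Matrix (Fin n) (Fin n) ℝ} (hS : S.PosSemidef) (q : Fin n → Fin N → ℂ) :
    0 ≤ QS S q :=
  Finset.sum_nonneg fun _ _ => add_nonneg (qf_nonneg169 hS _) (qf_nonneg169 hS _)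

theorem QS_add_le {S : Matrix (Fin n) (Fin n) ℝ} (hS : S.PosSemidef) {θ : ℝ} (hθ : 0 < θ)
    (p q : Fin n → Fin N → ℂ) :
    QS S (fun i => p i + q i) ≤ (1 + θ) * QS S p + (1 + 1 / θ) * QS S q := by
  unfold QS
  rw [Finset.mul_sum, Finset.mul_sum, ← Finset.sum_add_distrib]
  refine Finset.sum_le_sum fun l _ => ?_
  have h1 := qf169_add_le hS hθ (fun i => (p i l).re) (fun i => (q i l).re)
  have h2 := qf169_add_le hS hθ (fun i => (p i l).im) (fun i => (q i l).im)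
  simp only [Pi.add_apply, Complex.add_re, Complex.add_im]
  linarith

theorem sq_split (q : Fin n → Fin N → ℂ) :
    H589.sq q = ∑ l, (∑ i, (q i l).re ^ 2 + ∑ i, (q i l).im ^ 2) := by
  unfold H589.sq
  rw [Finset.sum_comm]
  refine Finset.sum_congr rfl fun l _ => ?_
  rw [← Finset.sum_add_distrib]
  refine Finset.sum_congr rfl fun j _ => ?_
  rw [← Complex.normSq_eq_norm_sq, Complex.normSq_apply]
  ring

theorem QS_le {S : Matrix (Fin n) (Fin n) ℝ} {K : ℝ}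
    (hK : ∀ v : V n, qf169 S v ≤ K * ∑ i, v i ^ 2) (q : Fin n → Fin N → ℂ) :
    QS S q ≤ K * H589.sq q := by
  rw [sq_split, Finset.mul_sum]
  refine Finset.sum_le_sum fun l _ => ?_
  have h1 := hK (fun i => (q i l).re)
  have h2 := hK (fun i => (q i l).im)
  linarith

theorem sq_le {S : Matrix (Fin n) (Fin n) ℝ} {C : ℝ}
    (hC : ∀ v : V n, ∑ i, v i ^ 2 ≤ C * qf169 S v) (q : Fin n → Fin N → ℂ) :
    H589.sq q ≤ C * QS S q := by
  rw [sq_split]
  unfold QS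
  rw [Finset.mul_sum]
  refine Finset.sum_le_sum fun l _ => ?_
  have h1 := hC (fun i => (q i l).re)
  have h2 := hC (fun i => (q i l).im)
  linarith

theorem QS_near {S s : Matrix (Fin n) (Fin n) ℝ} {c : ℝ}
    (h : ∀ v : V n, |qf169 s v - qf169 S v| ≤ c * qf169 S v) (q : Fin n → Fin N → ℂ) :
    |QS s q - QS S q| ≤ c * QS S q := by
  unfold QS
  rw [← Finset.sum_sub_distrib, Finset.mul_sum]
  refine (Finset.abs_sum_le_sum_abs _ _).trans (Finset.sum_le_sum fun l _ => ?_)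
  have h1 := abs_le.1 (h (fun i => (q i l).re))
  have h2 := abs_le.1 (h (fun i => (q i l).im))
  rw [abs_le]
  constructor <;> linarith [h1.1, h1.2, h2.1, h2.2]

/-! ## Energies -/

/-- The square of the gradient for the constant tensor `S`. -/
def dS (S : Matrix (Fin n) (Fin n) ℝ) (u : V n → Fin N → ℂ) (x : V n) : ℝ :=
  QS S (fun i => pd i u x)

/-- The square of the covariant gradient for the constant tensor `S`. -/
def cS (S : Matrix (Fin n) (Fin n) ℝ) (A : Cn n N) (u : V n → Fin N → ℂ) (x : V n) : ℝ :=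
  QS S (fun i => cd A i u x)

theorem cont_QS (S : Matrix (Fin n) (Fin n) ℝ) {q : Fin n → V n → Fin N → ℂ}
    (hq : ∀ i, Continuous (q i)) : Continuous fun x => QS S (fun i => q i x) := by
  have hl : ∀ i l, Continuous fun x => q i x l := fun i l => (continuous_pi_iff.1 (hq i)) l
  have hr : ∀ i l, Continuous fun x => (q i x l).re := fun i l =>
    Complex.continuous_re.comp (hl i l)
  have hm : ∀ i l, Continuous fun x => (q i x l).im := fun i l =>
    Complex.continuous_im.comp (hl i l)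
  unfold QS qf169
  exact continuous_finsetSum _ fun l _ => (continuous_finsetSum _ fun i _ =>
    continuous_finsetSum _ fun j _ => ((hr i l).const_mul _).mul (hr j l)).add
      (continuous_finsetSum _ fun i _ => continuous_finsetSum _ fun j _ =>
        ((hm i l).const_mul _).mul (hm j l))

theorem cont_dS (S : Matrix (Fin n) (Fin n) ℝ) {u : V n → Fin N → ℂ} (hu : ContDiff ℝ ∞ u) :
    Continuous (dS S u) :=
  cont_QS S fun i => (H158.contDiff_pd hu i).continuous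

theorem cont_cS (S : Matrix (Fin n) (Fin n) ℝ) {A : Cn n N} (hA : SmU A)
    {u : V n → Fin N → ℂ} (hu : ContDiff ℝ ∞ u) : Continuous (cS S A u) :=
  cont_QS S fun i => (contDiff_cd hA hu i).continuous

theorem ea_re {Ω : Set (V n)} (hb : Bornology.IsBounded Ω) {s : MF n} (hs : SmM s) {A : Cn n N}
    (hA : SmU A) {u : V n → Fin N → ℂ} (hu : ContDiff ℝ ∞ u) :
    (ea Ω s A u u).re = ∫ x in Ω, QS (s x) (fun i => cd A i u x) := by
  have c1 := qf_cont' hs hA hu hu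
  have h : (ea Ω s A u u).re = ∫ x in Ω,
      (qf (s x) (fun i => cd A i u x) (fun i => cd A i u x)).re := by
    rw [ea_eq]
    exact (integral_re (𝕜 := ℂ) (intOn hb c1)).symm
  rw [h]
  simp only [qf_QS]

theorem cont_QSs {s : MF n} (hs : SmM s) {A : Cn n N} (hA : SmU A) {u : V n → Fin N → ℂ}
    (hu : ContDiff ℝ ∞ u) : Continuous fun x => QS (s x) (fun i => cd A i u x) := by
  have c1 := Complex.continuous_re.comp (qf_cont' hs hA hu hu)
  refine c1.congr fun x => ?_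
  exact qf_QS _ _

/-! ## Poincaré -/

theorem poinR {Ω : Set (V n)} (hO : IsOpen Ω) (hb : Bornology.IsBounded Ω) (j₀ : Fin n) {R : ℝ}
    (hR : ∀ x ∈ Ω, |x j₀| ≤ R) {g : V n → ℝ} (hg : ContDiff ℝ ∞ g)
    (h0 : ∀ x ∈ frontier Ω, g x = 0) :
    ∫ x in Ω, g x ^ 2 ≤ 4 * R ^ 2 * ∫ x in Ω, ∑ j, pd j g x ^ 2 := by
  have hgg : ContDiff ℝ ∞ fun y => g y * g y := hg.mul hg
  have hp : ∀ j, Continuous (pd j g) := fun j => (H109.Hdy.contDiff_pdG hg j).continuous
  have hG : ∀ j, ContDiff ℝ ∞ fun x : V n => if j = j₀ then x j₀ else (0 : ℝ) := by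
    intro j
    split_ifs
    · exact contDiff_apply ℝ ℝ j₀
    · exact contDiff_const
  have h := H109.Hdy.flux_real hO hb hG hgg (fun x hx => by rw [h0 x hx, zero_mul])
  have e1 : ∀ x, ∑ j, (if j = j₀ then x j₀ else (0 : ℝ)) * pd j (fun y => g y * g y) x =
      x j₀ * (2 * g x * pd j₀ g x) := by
    intro x
    simp only [ite_mul, zero_mul, Finset.sum_ite_eq', Finset.mem_univ, if_true]
    rw [H109.Hdy.pd_mulR hg hg]
    ring
  have e2 : ∀ x, (∑ j, pd j (fun x : V n => if j = j₀ then x j₀ else (0 : ℝ)) x) * (g x * g x) =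
      g x ^ 2 := by
    intro x
    have e3 : ∀ j, pd j (fun x : V n => if j = j₀ then x j₀ else (0 : ℝ)) x =
        if j = j₀ then 1 else 0 := by
      intro j
      split_ifs with hj
      · subst hj
        unfold pd
        have h1 : HasFDerivAt (fun x : V n => x j) (ContinuousLinearMap.proj (R := ℝ)
          (φ := fun _ : Fin n => ℝ) j) x := hasFDerivAt_apply j x
        rw [h1.fderiv]
        simp
      · unfold pd
        simp
    simp only [e3, Finset.sum_ite_eq', Finset.mem_univ, if_true]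
    ring
  simp only [e1, e2] at h
  have h4 : ∫ x in Ω, g x ^ 2 = ∫ x in Ω, -(x j₀ * (2 * g x * pd j₀ g x)) := by
    rw [integral_neg, h, neg_neg]
  have c1 : Continuous fun x => g x ^ 2 := hg.continuous.pow 2
  have c2 : Continuous fun x => ∑ j, pd j g x ^ 2 :=
    continuous_finsetSum _ fun j _ => (hp j).pow 2
  have c3 : Continuous fun x => -(x j₀ * (2 * g x * pd j₀ g x)) :=
    ((continuous_apply j₀).mul ((continuous_const.mul hg.continuous).mul (hp j₀))).neg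
  have c1' : Continuous fun x => 1 / 2 * g x ^ 2 := continuous_const.mul c1
  have c2' : Continuous fun x => 2 * R ^ 2 * ∑ j, pd j g x ^ 2 := continuous_const.mul c2
  have h5 : ∫ x in Ω, -(x j₀ * (2 * g x * pd j₀ g x)) ≤
      ∫ x in Ω, (1 / 2 * g x ^ 2 + 2 * R ^ 2 * ∑ j, pd j g x ^ 2) := by
    refine setIntegral_mono_on (intR hb c3) (intR hb (c1'.add c2')) hO.measurableSet ?_
    intro x hx
    have hc := hR x hx
    have h6 : pd j₀ g x ^ 2 ≤ ∑ j, pd j g x ^ 2 :=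
      Finset.single_le_sum (f := fun j => pd j g x ^ 2) (fun _ _ => sq_nonneg _)
        (Finset.mem_univ j₀)
    have h8 : x j₀ ^ 2 ≤ R ^ 2 := by
      rw [← sq_abs]
      exact pow_le_pow_left₀ (abs_nonneg _) hc 2
    have h7 : -(x j₀ * (2 * g x * pd j₀ g x)) ≤ 1 / 2 * g x ^ 2 + 2 * (x j₀ ^ 2 * pd j₀ g x ^ 2) := by
      nlinarith [sq_nonneg (g x + 2 * (x j₀ * pd j₀ g x))]
    have h9 : x j₀ ^ 2 * pd j₀ g x ^ 2 ≤ R ^ 2 * ∑ j, pd j g x ^ 2 :=
      mul_le_mul h8 h6 (sq_nonneg _) (sq_nonneg _)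
    linarith
  rw [integral_add (intR hb c1') (intR hb c2'), integral_const_mul, integral_const_mul] at h5
  rw [← h4] at h5
  linarith

/-- Poincaré for vector functions. -/
theorem poinV {Ω : Set (V n)} (hO : IsOpen Ω) (hb : Bornology.IsBounded Ω) (j₀ : Fin n) {R : ℝ}
    (hR : ∀ x ∈ Ω, |x j₀| ≤ R)
    {z : V n → Fin N → ℂ} (hz : ContDiff ℝ ∞ z) (h0 : ∀ x ∈ frontier Ω, z x = 0) :
    ∫ x in Ω, s2 (z x) ≤ 4 * R ^ 2 * ∫ x in Ω, H292.GEn.dsq z x := by
  have hzl : ∀ l, ContDiff ℝ ∞ fun x => z x l := fun l => contDiff_pi.1 hz l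
  have hre : ∀ l, ContDiff ℝ ∞ fun x => (z x l).re := fun l =>
    Complex.reCLM.contDiff.comp (hzl l)
  have him : ∀ l, ContDiff ℝ ∞ fun x => (z x l).im := fun l =>
    Complex.imCLM.contDiff.comp (hzl l)
  have cr : ∀ l, Continuous fun x => (z x l).re ^ 2 := fun l => (hre l).continuous.pow 2
  have ci : ∀ l, Continuous fun x => (z x l).im ^ 2 := fun l => (him l).continuous.pow 2
  have dr : ∀ l, Continuous fun x => ∑ j, pd j (fun y => (z y l).re) x ^ 2 := fun l =>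
    continuous_finsetSum _ fun j _ => (H158.contDiff_pd (hre l) j).continuous.pow 2
  have di : ∀ l, Continuous fun x => ∑ j, pd j (fun y => (z y l).im) x ^ 2 := fun l =>
    continuous_finsetSum _ fun j _ => (H158.contDiff_pd (him l) j).continuous.pow 2
  have e1 : ∀ x, s2 (z x) = ∑ l, ((z x l).re ^ 2 + (z x l).im ^ 2) := by
    intro x
    unfold s2
    refine Finset.sum_congr rfl fun l _ => ?_
    rw [← Complex.normSq_eq_norm_sq, Complex.normSq_apply]
    ring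
  have e2 : ∀ x, H292.GEn.dsq z x = ∑ l, (∑ j, pd j (fun y => (z y l).re) x ^ 2 +
      ∑ j, pd j (fun y => (z y l).im) x ^ 2) := by
    intro x
    unfold H292.GEn.dsq
    rw [sq_split]
    refine Finset.sum_congr rfl fun l _ => ?_
    have h1 : ∀ j, pd j z x l = pd j (fun y => z y l) x := fun j => H158.pd_pi (dfa hz x) j l
    have h2 : ∀ j, pd j (fun y => (z y l).re) x = (pd j (fun y => z y l) x).re := fun j =>
      pd_rp ((hzl l).differentiable (by simp) x) j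
    have h3 : ∀ j, pd j (fun y => (z y l).im) x = (pd j (fun y => z y l) x).im := fun j =>
      pd_mp ((hzl l).differentiable (by simp) x) j
    simp only [h1, h2, h3]
  simp only [e1, e2]
  have k1 : ∀ l ∈ (Finset.univ : Finset (Fin N)), Integrable
      (fun x => (z x l).re ^ 2 + (z x l).im ^ 2) (volume.restrict Ω) := fun l _ =>
    intR hb ((cr l).add (ci l))
  have k2 : ∀ l ∈ (Finset.univ : Finset (Fin N)), Integrable
      (fun x => ∑ j, pd j (fun y => (z y l).re) x ^ 2 + ∑ j, pd j (fun y => (z y l).im) x ^ 2)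
        (volume.restrict Ω) := fun l _ => intR hb ((dr l).add (di l))
  rw [integral_finsetSum _ k1, integral_finsetSum _ k2, Finset.mul_sum]
  refine Finset.sum_le_sum fun l _ => ?_
  rw [integral_add (intR hb (cr l)) (intR hb (ci l)),
    integral_add (intR hb (dr l)) (intR hb (di l)), mul_add]
  refine add_le_add ?_ ?_
  · exact poinR hO hb j₀ hR (hre l) fun x hx => by rw [h0 x hx]; rfl
  · exact poinR hO hb j₀ hR (him l) fun x hx => by rw [h0 x hx]; rfl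

/-! ## The linear boundary values -/

/-- `ℓ_ξ e_{l₀}`. -/
def fv (ξ : V n) (l₀ : Fin N) : V n → Fin N → ℂ :=
  fun x l => if l = l₀ then ((lf169 ξ x : ℝ) : ℂ) else 0

theorem fv_sm (ξ : V n) (l₀ : Fin N) : ContDiff ℝ ∞ (fv ξ l₀) := by
  refine contDiff_pi.2 fun l => ?_
  unfold fv
  split_ifs
  · exact Complex.ofRealCLM.contDiff.comp (lf_sm169 ξ)
  · exact contDiff_const

theorem pd_fv (ξ : V n) (l₀ : Fin N) (i : Fin n) (x : V n) (l : Fin N) :
    pd i (fv ξ l₀) x l = if l = l₀ then ((ξ i : ℝ) : ℂ) else 0 := by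
  have h1 : pd i (fv ξ l₀) x l = pd i (fun y => fv ξ l₀ y l) x :=
    H158.pd_pi (dfa (fv_sm ξ l₀) x) i l
  rw [h1]
  unfold fv
  split_ifs with h
  · rw [H109.Hdy.pd_ofR (lf_sm169 ξ), pd_lf169]
  · unfold pd
    simp

theorem dS_fv (S : Matrix (Fin n) (Fin n) ℝ) (ξ : V n) (l₀ : Fin N) (x : V n) :
    dS S (fv ξ l₀) x = qf169 S ξ := by
  unfold dS QS
  rw [Finset.sum_eq_single l₀]
  · simp only [pd_fv, if_true, Complex.ofReal_re, Complex.ofReal_im]
    have : qf169 S (fun _ : Fin n => (0 : ℝ)) = 0 := by simp [qf169]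
    rw [this, add_zero]
  · intro l _ hl
    simp [pd_fv, hl, qf169]
  · intro h
    exact absurd (Finset.mem_univ _) h

theorem dS_int (Ω : Set (V n)) (S : Matrix (Fin n) (Fin n) ℝ) (ξ : V n) (l₀ : Fin N) :
    ∫ x in Ω, dS S (fv ξ l₀) x = volume.real Ω * qf169 S ξ := by
  simp only [dS_fv]
  rw [setIntegral_const, smul_eq_mul]

/-- The linear function has the least energy for the constant tensor. -/
theorem low4 {Ω : Set (V n)} (hO : IsOpen Ω) (hb : Bornology.IsBounded Ω)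
    {S : Matrix (Fin n) (Fin n) ℝ} (hS : S.PosDef) (ξ : V n) (l₀ : Fin N)
    {u : V n → Fin N → ℂ} (hu : ContDiff ℝ ∞ u) (hf : ∀ x ∈ frontier Ω, u x = fv ξ l₀ x) :
    volume.real Ω * qf169 S ξ ≤ ∫ x in Ω, dS S u x := by
  have hSs : S.IsSymm := symm_of_posDef169 hS
  have hSc : ∀ i j, Continuous fun _ : V n => S i j := fun i j => continuous_const
  have hW := sl_lf169 hO hb hSs ξ
  have hE : En Ω (fun _ => S) (lf169 ξ) = volume.real Ω * qf169 S ξ := by
    rw [En_sol hb hSc (fun _ => hSs) (fun _ => hS.posSemidef) hW]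
    unfold rb
    simp only [pd_lf169]
    rw [setIntegral_const, smul_eq_mul]
    rfl
  set w : V n → ℝ := fun x => (u x l₀).re with hw
  have sw : ContDiff ℝ ∞ w := Complex.reCLM.contDiff.comp (contDiff_pi.1 hu l₀)
  have wf : ∀ x ∈ frontier Ω, w x = lf169 ξ x := fun x hx => by
    show (u x l₀).re = _
    rw [hf x hx]
    simp [fv]
  have h1 : En Ω (fun _ => S) (lf169 ξ) ≤ rb Ω (fun _ => S) w w :=
    csInf_le (En_bdd (fun _ => hS.posSemidef) _) ⟨w, sw, wf, rfl⟩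
  rw [hE] at h1
  refine h1.trans ?_
  unfold rb
  have c1 := rb_integrable (s := fun _ => S) hb hSc sw sw
  refine setIntegral_mono_on c1 (intR hb (cont_dS S hu)) hO.measurableSet fun x _ => ?_
  have e1 : ∀ i, pd i w x = (pd i u x l₀).re := by
    intro i
    have h2 : pd i u x l₀ = pd i (fun y => u y l₀) x := H158.pd_pi (dfa hu x) i l₀
    rw [h2]
    exact pd_rp (((contDiff_pi.1 hu) l₀).differentiable (by simp) x) i
  simp only [e1]
  have h3 : qf169 S (fun i => (pd i u x l₀).re) ≤ dS S u x := by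
    unfold dS QS
    refine le_trans ?_ (Finset.single_le_sum (f := fun l => qf169 S (fun i => (pd i u x l).re) +
      qf169 S (fun i => (pd i u x l).im)) (fun l _ => add_nonneg (qf_nonneg169 hS.posSemidef _)
        (qf_nonneg169 hS.posSemidef _)) (Finset.mem_univ l₀))
    have := qf_nonneg169 hS.posSemidef (fun i => (pd i u x l₀).im)
    linarith
  exact h3

/-! ## Pairs near a constant metric -/

/-- A pair `(s, A)` near `(S, 0)` with a solution `u` with the boundary values of `w`. -/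
structure Hyp (Ω : Set (V n)) (S : Matrix (Fin n) (Fin n) ℝ) (δ : ℝ) (w : V n → Fin N → ℂ)
    (s : MF n) (A : Cn n N) (u : V n → Fin N → ℂ) : Prop where
  hs : SmM s
  hsym : ∀ x, (s x).IsSymm
  hA : SmU A
  near : ∀ x ∈ Ω, ∀ v : V n, |qf169 (s x) v - qf169 S v| ≤ δ * qf169 S v
  small : ∀ x ∈ Ω, ∀ i a b, ‖A i x a b‖ ≤ δ
  hu : ContDiff ℝ ∞ u
  bd : ∀ x ∈ frontier Ω, u x = w x
  sol : ∀ x ∈ Ω, lav s A u x = 0

theorem p1 {S : Matrix (Fin n) (Fin n) ℝ} (hS : S.PosSemidef) {K : ℝ} (hK0 : 0 ≤ K)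
    (hK : ∀ v : V n, qf169 S v ≤ K * ∑ i, v i ^ 2) {δ : ℝ} (hδ : 0 < δ) (hδ1 : δ ≤ 1)
    {A : Cn n N} {x : V n} (hA : ∀ i a b, ‖A i x a b‖ ≤ δ) (u : V n → Fin N → ℂ) :
    cS S A u x ≤ (1 + δ) * dS S u x + K * (2 * n * N ^ 2 * δ * s2 (u x)) := by
  have h1 := QS_add_le hS hδ (fun i => pd i u x) (fun i => A i x *ᵥ u x)
  have h2 := mul_le_mul_of_nonneg_left (H292.GEn.small hδ hδ1 (α := fun i => A i x) hA (u x)) hK0
  have h3 := QS_le hK (fun i => A i x *ᵥ u x)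
  have h4 : 0 ≤ 1 + 1 / δ := by positivity
  have h5 := mul_le_mul_of_nonneg_left h3 h4
  have h6 : cS S A u x = QS S (fun i => pd i u x + A i x *ᵥ u x) := rfl
  rw [h6]
  unfold dS
  have e : (1 + 1 / δ) * (K * H589.sq fun i => A i x *ᵥ u x) =
      K * ((1 + 1 / δ) * H589.sq fun i => A i x *ᵥ u x) := by ring
  rw [e] at h5
  linarith

theorem p2 {S : Matrix (Fin n) (Fin n) ℝ} (hS : S.PosSemidef) {K : ℝ} (hK0 : 0 ≤ K)
    (hK : ∀ v : V n, qf169 S v ≤ K * ∑ i, v i ^ 2) {δ : ℝ} (hδ : 0 < δ) (hδ1 : δ ≤ 1)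
    {A : Cn n N} {x : V n} (hA : ∀ i a b, ‖A i x a b‖ ≤ δ) (u : V n → Fin N → ℂ) :
    dS S u x ≤ (1 + δ) * cS S A u x + K * (2 * n * N ^ 2 * δ * s2 (u x)) := by
  have h1 := QS_add_le hS hδ (fun i => cd A i u x) (fun i => (-A i x) *ᵥ u x)
  have h0 : (fun i => cd A i u x + (-A i x) *ᵥ u x) = fun i => pd i u x := by
    funext i
    unfold cd
    rw [Matrix.neg_mulVec]
    abel
  rw [h0] at h1
  have h2 := mul_le_mul_of_nonneg_left (H292.GEn.small hδ hδ1 (α := fun i => -A i x)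
    (fun i a b => by rw [Matrix.neg_apply, norm_neg]; exact hA i a b) (u x)) hK0
  have h3 := QS_le hK (fun i => (-A i x) *ᵥ u x)
  have h4 : 0 ≤ 1 + 1 / δ := by positivity
  have h5 := mul_le_mul_of_nonneg_left h3 h4
  unfold dS cS
  have e : (1 + 1 / δ) * (K * H589.sq fun i => (-A i x) *ᵥ u x) =
      K * ((1 + 1 / δ) * H589.sq fun i => (-A i x) *ᵥ u x) := by ring
  rw [e] at h5
  linarith

/-- The energy from above. -/
theorem up {Ω : Set (V n)} (hO : IsOpen Ω) (hb : Bornology.IsBounded Ω)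
    {S : Matrix (Fin n) (Fin n) ℝ} (hS : S.PosDef) {K : ℝ} (hK0 : 0 ≤ K)
    (hK : ∀ v : V n, qf169 S v ≤ K * ∑ i, v i ^ 2) {δ : ℝ} (hδ : 0 < δ) (hδ1 : δ ≤ 1)
    {w u : V n → Fin N → ℂ} {s : MF n} {A : Cn n N} (hw : ContDiff ℝ ∞ w)
    (h : Hyp Ω S δ w s A u) : (ea Ω s A u u).re ≤ (1 + δ) * ((1 + δ) * (∫ x in Ω, dS S w x) +
      K * (2 * n * N ^ 2 * δ) * ∫ x in Ω, s2 (w x)) := by
  have psd : ∀ x ∈ Ω, ∀ q : Fin n → Fin N → ℂ, 0 ≤ (qf (s x) q q).re := fun x hx q => by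
    rw [qf_QS]
    have h1 := (abs_le.1 (QS_near (h.near x hx) q)).1
    have h2 := QS_nonneg hS.posSemidef q
    nlinarith
  refine (H292.GEn.minim hO hb h.hs h.hsym h.hA h.hu hw h.sol h.bd psd).trans ?_
  rw [ea_re hb h.hs h.hA hw]
  have c2 := cont_dS S hw
  have c3 : Continuous fun x => s2 (w x) := cont_s2 hw
  rw [← integral_const_mul (1 + δ) (fun x => dS S w x), ← integral_const_mul (K * (2 * n * N ^ 2 * δ)),
    ← integral_add (intR hb (c2.const_mul _)) (intR hb (c3.const_mul _)), ← integral_const_mul]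
  refine setIntegral_mono_on (intR hb (cont_QSs h.hs h.hA hw))
    (intR hb (((c2.const_mul _).add (c3.const_mul _)).const_mul _)) hO.measurableSet fun x hx => ?_
  have k1 := (abs_le.1 (QS_near (h.near x hx) (fun i => cd A i w x))).2
  have k2 := p1 hS.posSemidef hK0 hK hδ hδ1 (h.small x hx) w
  have k3 : QS (s x) (fun i => cd A i w x) ≤ (1 + δ) * cS S A w x := by
    unfold cS
    linarith
  refine k3.trans (mul_le_mul_of_nonneg_left ?_ (by linarith))
  refine k2.trans (le_of_eq ?_)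
  ring

/-- The energy from below. -/
theorem low {Ω : Set (V n)} (hO : IsOpen Ω) (hb : Bornology.IsBounded Ω) (j₀ : Fin n) {R : ℝ}
    (hR : ∀ x ∈ Ω, |x j₀| ≤ R) {S : Matrix (Fin n) (Fin n) ℝ} (hS : S.PosDef) {K C : ℝ}
    (hK0 : 0 ≤ K) (hK : ∀ v : V n, qf169 S v ≤ K * ∑ i, v i ^ 2) (hC0 : 0 ≤ C)
    (hC : ∀ v : V n, ∑ i, v i ^ 2 ≤ C * qf169 S v) {δ : ℝ} (hδ : 0 < δ) (hδ1 : δ ≤ 1)
    {w u : V n → Fin N → ℂ} {s : MF n} {A : Cn n N} (hw : ContDiff ℝ ∞ w)
    (h : Hyp Ω S δ w s A u)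
    (hmin : ∫ x in Ω, dS S w x ≤ ∫ x in Ω, dS S u x) {L : ℝ}
    (hL : L = 64 * K * n * N ^ 2 * R ^ 2 * C) (hLδ : L * δ ≤ 1) :
    (1 - δ) * ((∫ x in Ω, dS S w x) * (1 - L * δ) -
      (4 * K * n * N ^ 2 * ∫ x in Ω, s2 (w x)) * δ) ≤ (1 + δ) * (ea Ω s A u u).re := by
  have hu := h.hu
  set Q := ∫ x in Ω, dS S w x with hQ
  set D := ∫ x in Ω, dS S u x with hD
  set P := ∫ x in Ω, cS S A u x with hP
  set M := ∫ x in Ω, s2 (u x) with hM
  set Mw := ∫ x in Ω, s2 (w x) with hMw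
  have cu := cont_dS S hu
  have cw := cont_dS S hw
  have cc := cont_cS S h.hA hu
  have cm : Continuous fun x => s2 (u x) := cont_s2 hu
  have cmw : Continuous fun x => s2 (w x) := cont_s2 hw
  set z : V n → Fin N → ℂ := fun x => u x - w x with hz
  have sz : ContDiff ℝ ∞ z := hu.sub hw
  have z0 : ∀ x ∈ frontier Ω, z x = 0 := fun x hx => by
    show u x - w x = 0
    rw [h.bd x hx, sub_self]
  have cz : Continuous fun x => s2 (z x) := cont_s2 sz
  -- energy and `P`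
  have a1 : (1 - δ) * P ≤ (ea Ω s A u u).re := by
    rw [ea_re hb h.hs h.hA hu, hP, ← integral_const_mul]
    refine setIntegral_mono_on (intR hb (cc.const_mul _)) (intR hb (cont_QSs h.hs h.hA hu))
      hO.measurableSet fun x hx => ?_
    have k1 := (abs_le.1 (QS_near (h.near x hx) (fun i => cd A i u x))).1
    unfold cS
    linarith
  -- `D` and `P`
  have a2 : D ≤ (1 + δ) * P + K * (2 * n * N ^ 2 * δ) * M := by
    rw [hD, hP, hM, ← integral_const_mul, ← integral_const_mul,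
      ← integral_add (intR hb (cc.const_mul _)) (intR hb (cm.const_mul _))]
    refine setIntegral_mono_on (intR hb cu) (intR hb ((cc.const_mul _).add (cm.const_mul _)))
      hO.measurableSet fun x hx => ?_
    refine (p2 hS.posSemidef hK0 hK hδ hδ1 (h.small x hx) u).trans (le_of_eq ?_)
    ring
  -- Poincaré
  have a3 : M ≤ 2 * (∫ x in Ω, s2 (z x)) + 2 * Mw := by
    rw [hM, hMw, ← integral_const_mul, ← integral_const_mul,
      ← integral_add (intR hb (cz.const_mul _)) (intR hb (cmw.const_mul _))]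
    refine setIntegral_mono_on (intR hb cm) (intR hb ((cz.const_mul _).add (cmw.const_mul _)))
      hO.measurableSet fun x _ => ?_
    exact H292.GEn.s2_le (u x) (w x)
  have a4 := poinV hO hb j₀ hR sz z0
  have a5 : ∫ x in Ω, H292.GEn.dsq z x ≤ C * (2 * D + 2 * Q) := by
    rw [hD, hQ, ← integral_const_mul, ← integral_const_mul,
      ← integral_add (intR hb (cu.const_mul _)) (intR hb (cw.const_mul _)), ← integral_const_mul]
    refine setIntegral_mono_on (intR hb (H292.GEn.cont_dsq sz))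
      (intR hb (((cu.const_mul _).add (cw.const_mul _)).const_mul _)) hO.measurableSet
      fun x _ => ?_
    refine (sq_le hC _).trans (mul_le_mul_of_nonneg_left ?_ hC0)
    have e1 : (fun i => pd i z x) = fun i => pd i u x + -pd i w x := by
      funext i
      rw [← sub_eq_add_neg]
      exact pd_sub (dfa hu x) (dfa hw x) i
    rw [e1]
    have k1 := QS_add_le hS.posSemidef one_pos (fun i => pd i u x) (fun i => -pd i w x)
    have k2 : QS S (fun i => -pd i w x) = QS S (fun i => pd i w x) := by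
      unfold QS qf169
      simp only [Pi.neg_apply, Complex.neg_re, Complex.neg_im]
      refine Finset.sum_congr rfl fun l _ => ?_
      congr 1 <;>
        exact Finset.sum_congr rfl fun i _ => Finset.sum_congr rfl fun j _ => by ring
    rw [k2] at k1
    norm_num at k1
    unfold dS
    linarith
  have hR2 : 0 ≤ 4 * R ^ 2 := by positivity
  have a6 : M ≤ 32 * R ^ 2 * C * D + 2 * Mw := by
    have b1 := mul_le_mul_of_nonneg_left a5 hR2
    have b2 : 4 * R ^ 2 * (C * (2 * D + 2 * Q)) ≤ 4 * R ^ 2 * (C * (2 * D + 2 * D)) := by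
      refine mul_le_mul_of_nonneg_left (mul_le_mul_of_nonneg_left ?_ hC0) hR2
      linarith
    nlinarith
  have hk : 0 ≤ K * (2 * n * N ^ 2 * δ) := by positivity
  have a7 := mul_le_mul_of_nonneg_left a6 hk
  have a8 : D * (1 - L * δ) - (4 * K * n * N ^ 2 * Mw) * δ ≤ (1 + δ) * P := by
    rw [hL]
    nlinarith
  have a9 : Q * (1 - L * δ) ≤ D * (1 - L * δ) :=
    mul_le_mul_of_nonneg_right hmin (by linarith)
  have a10 : Q * (1 - L * δ) - (4 * K * n * N ^ 2 * Mw) * δ ≤ (1 + δ) * P := by linarith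
  have a11 := mul_le_mul_of_nonneg_left a10 (sub_nonneg.2 hδ1)
  refine a11.trans ?_
  have a12 := mul_le_mul_of_nonneg_left a1 (by linarith : (0 : ℝ) ≤ 1 + δ)
  calc (1 - δ) * ((1 + δ) * P) = (1 + δ) * ((1 - δ) * P) := by ring
    _ ≤ _ := a12

/-- The choice of `δ`. -/
theorem choice (Q L a b : ℝ) {θ : ℝ} (hθ : 0 < θ) : ∃ δ : ℝ, 0 < δ ∧ δ ≤ 1 ∧ L * δ ≤ 1 ∧
    ∀ E : ℝ, (1 - δ) * (Q * (1 - L * δ) - a * δ) ≤ (1 + δ) * E →
      E ≤ (1 + δ) * ((1 + δ) * Q + b * δ) → |E - Q| ≤ θ := by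
  have t1 : Tendsto (fun δ : ℝ => (1 - δ) * (Q * (1 - L * δ) - a * δ) / (1 + δ)) (𝓝 0) (𝓝 Q) := by
    have h : ContinuousAt (fun δ : ℝ => (1 - δ) * (Q * (1 - L * δ) - a * δ) / (1 + δ)) 0 := by
      refine ContinuousAt.div ?_ ?_ (by norm_num) <;> fun_prop
    have h2 := h.tendsto
    simpa using h2
  have t2 : Tendsto (fun δ : ℝ => (1 + δ) * ((1 + δ) * Q + b * δ)) (𝓝 0) (𝓝 Q) := by
    have h : ContinuousAt (fun δ : ℝ => (1 + δ) * ((1 + δ) * Q + b * δ)) 0 := by fun_prop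
    have h2 := h.tendsto
    simpa using h2
  have t3 : Tendsto (fun δ : ℝ => L * δ) (𝓝 0) (𝓝 0) := by
    have h : ContinuousAt (fun δ : ℝ => L * δ) 0 := by fun_prop
    have h2 := h.tendsto
    simpa using h2
  have e1 : ∀ᶠ δ in 𝓝 (0 : ℝ), Q - θ < (1 - δ) * (Q * (1 - L * δ) - a * δ) / (1 + δ) :=
    t1.eventually_const_lt (by linarith)
  have e2 : ∀ᶠ δ in 𝓝 (0 : ℝ), (1 + δ) * ((1 + δ) * Q + b * δ) < Q + θ :=
    t2.eventually_lt_const (by linarith)
  have e3 : ∀ᶠ δ in 𝓝 (0 : ℝ), L * δ < 1 := t3.eventually_lt_const one_pos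
  have e4 : ∀ᶠ δ in 𝓝 (0 : ℝ), δ < 1 := eventually_lt_nhds one_pos
  have e5 : ∀ᶠ δ in 𝓝[>] (0 : ℝ), 0 < δ := self_mem_nhdsWithin
  obtain ⟨δ, ⟨⟨⟨h1, h2⟩, h3⟩, h4⟩, h5⟩ :=
    ((((e1.and e2).and e3).and e4).filter_mono nhdsWithin_le_nhds |>.and e5).exists
  refine ⟨δ, h5, h4.le, h3.le, fun E hE1 hE2 => ?_⟩
  have hp : 0 < 1 + δ := by linarith
  have h6 : (1 - δ) * (Q * (1 - L * δ) - a * δ) / (1 + δ) ≤ E := by
    rw [div_le_iff₀ hp]
    linarith
  rw [abs_le]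
  constructor <;> linarith

/-- The energies of pairs near `(G, 0)`. -/
theorem en_limJ {Ω : Set (V n)} (hO : IsOpen Ω) (hb : Bornology.IsBounded Ω) (j₀ : Fin n)
    (l₀ : Fin N) {G : Matrix (Fin n) (Fin n) ℝ} (hG : G.PosDef) (ξ : V n) {θ : ℝ} (hθ : 0 < θ) :
    ∃ r > 0, ∀ g : MF n, SmM g → (∀ x, (g x).PosDef) →
      (∀ x ∈ Ω, ∀ i j, |g x i j - G i j| < r) → ∀ A : Cn n N, SmU A →
      (∀ x ∈ Ω, ∀ i a b, ‖A i x a b‖ < r) → ∀ u v : V n → Fin N → ℂ,
        Hr Ω g A (fv ξ l₀) u → Hr Ω g A (fv ξ l₀) v →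
        |(en Ω g A u v).re - volume.real Ω * qf169 (√G.det • G⁻¹) ξ| ≤ θ := by
  set S : Matrix (Fin n) (Fin n) ℝ := √G.det • G⁻¹ with hSdef
  have hS : S.PosDef := hG.inv.smul (Real.sqrt_pos.2 hG.det_pos)
  obtain ⟨C, hC, hcoer⟩ := qf_coer169 hS
  obtain ⟨K, hK0, hK⟩ : ∃ K : ℝ, 0 ≤ K ∧ ∀ v : V n, qf169 S v ≤ K * ∑ i, v i ^ 2 := by
    set m : ℝ := ∑ i, ∑ j, |S i j| with hm
    have hm0 : 0 ≤ m := Finset.sum_nonneg fun _ _ => Finset.sum_nonneg fun _ _ => abs_nonneg _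
    have h1 : ∀ i j, |S i j - (0 : Matrix (Fin n) (Fin n) ℝ) i j| ≤ m := by
      intro i j
      rw [Matrix.zero_apply, sub_zero, hm]
      refine le_trans (Finset.single_le_sum (f := fun j => |S i j|) (fun _ _ => abs_nonneg _)
        (Finset.mem_univ j)) ?_
      exact Finset.single_le_sum (f := fun i => ∑ j, |S i j|)
        (fun _ _ => Finset.sum_nonneg fun _ _ => abs_nonneg _) (Finset.mem_univ i)
    refine ⟨m * n, by positivity, fun v => ?_⟩
    have h2 := (abs_le.1 (qf_pert169 (S := 0) (S' := S) h1 v)).2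
    have h3 : qf169 (0 : Matrix (Fin n) (Fin n) ℝ) v = 0 := by simp [qf169]
    linarith
  obtain ⟨R, hR⟩ : ∃ R : ℝ, ∀ x ∈ Ω, |x j₀| ≤ R := by
    obtain ⟨R, hR⟩ := hb.exists_norm_le
    exact ⟨R, fun x hx => (norm_le_pi_norm x j₀).trans (hR x hx)⟩
  set Mw : ℝ := ∫ x in Ω, s2 (fv ξ l₀ x) with hMw
  set Q : ℝ := volume.real Ω * qf169 S ξ with hQ
  obtain ⟨δ, hδ, hδ1, hLδ, hch⟩ := choice Q (64 * K * n * N ^ 2 * R ^ 2 * C)
    (4 * K * n * N ^ 2 * Mw) (K * (2 * n * N ^ 2) * Mw) hθ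
  obtain ⟨r, hr, h⟩ := sg_near169 hG (δ := δ / (C * (n + 1))) (by positivity)
  refine ⟨min r δ, lt_min hr hδ, fun g hg hp hgr A hA hAr u v hu hv => ?_⟩
  have hnear : ∀ x ∈ Ω, ∀ v : V n, |qf169 (sg g x) v - qf169 S v| ≤ δ * qf169 S v := by
    intro x hx v
    have h1 := qf_pert169 (S := S) (S' := sg g x) (δ := δ / (C * (n + 1)))
      (fun i j => (h (g x) (fun i j => (hgr x hx i j).trans_le (min_le_left _ _)) i j).le) v
    refine h1.trans ?_
    have h2 := hcoer v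
    have h3 : 0 ≤ ∑ i, v i ^ 2 := Finset.sum_nonneg fun _ _ => sq_nonneg _
    have h4 : δ / (C * (n + 1)) * n ≤ δ / C := by
      rw [div_mul_eq_mul_div, div_le_div_iff₀ (by positivity) hC]
      have : (0 : ℝ) ≤ n := Nat.cast_nonneg n
      nlinarith [mul_pos hδ hC]
    calc δ / (C * (n + 1)) * n * ∑ i, v i ^ 2 ≤ δ / C * ∑ i, v i ^ 2 :=
          mul_le_mul_of_nonneg_right h4 h3
      _ ≤ δ / C * (C * qf169 S v) := mul_le_mul_of_nonneg_left h2 (by positivity)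
      _ = δ * qf169 S v := by field_simp
  have hs : SmM (sg g) := smM_sg hg hp
  have hy : ∀ x, (sg g x).IsSymm := fun x => (posDef_sg hp x).isHermitian
  have hfr : ∀ x ∈ frontier Ω, x ∉ Ω := fun x hx => by
    rw [hO.frontier_eq] at hx
    exact hx.2
  have hsol : ∀ x ∈ Ω, lav (sg g) A u x = 0 :=
    H292.UP.lav_of_weak hO hb hs hy hA hu.1 fun φ hφ h0 =>
      hu.2.2 φ hφ fun x hx => h0 x (hfr x hx)
  have hH : Hyp Ω S δ (fv ξ l₀) (sg g) A u :=
    ⟨hs, hy, hA, hnear, fun x hx i a b => (hAr x hx i a b).le.trans (min_le_right _ _), hu.1,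
      hu.2.1, hsol⟩
  have huv : en Ω g A u v = en Ω g A u u := by
    have h1 : en Ω g A u (fun x => v x - u x) = 0 := hu.2.2 _ (hv.1.sub hu.1) fun x hx => by
      show v x - u x = 0
      rw [hv.2.1 x hx, hu.2.1 x hx, sub_self]
    have h2 : ea Ω (sg g) A u (fun x => v x - u x) = ea Ω (sg g) A u v - ea Ω (sg g) A u u :=
      H292.UP.ea_sub_right hb hs hA hu.1 hv.1 hu.1
    have h3 : ea Ω (sg g) A u (fun x => v x - u x) = 0 := h1
    rw [h3] at h2
    exact (sub_eq_zero.1 h2.symm)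
  have k1 := up hO hb hS hK0 hK hδ hδ1 (fv_sm ξ l₀) hH
  have k2 := low hO hb j₀ hR hS hK0 hK hC.le hcoer hδ hδ1 (fv_sm ξ l₀) hH
    (by rw [dS_int]; exact low4 hO hb hS ξ l₀ hu.1 hu.2.1) rfl hLδ
  rw [dS_int] at k1 k2
  rw [huv]
  refine hch _ k2 (k1.trans (le_of_eq ?_))
  ring

/-- **Row JB-LIN** -/
theorem rowLIN : RowLIN := by
  intro n N hn hN Ω hO hb hne B η hB hη
  have j₀ : Fin n := ⟨0, by omega⟩
  have l₀ : Fin N := ⟨0, by omega⟩
  by_contra hcon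
  push Not at hcon
  have hm : ∀ m : ℕ, ∃ G₁ G₂ : Matrix (Fin n) (Fin n) ℝ, CoG B G₁ ∧ CoG B G₂ ∧
      ∃ g₁ g₂ : MF n, SmM g₁ ∧ SmM g₂ ∧ (∀ x, (g₁ x).PosDef) ∧ (∀ x, (g₂ x).PosDef) ∧
      (∀ x ∈ Ω, ∀ i j, |g₁ x i j - G₁ i j| ≤ 1 / ((m : ℝ) + 1)) ∧
      (∀ x ∈ Ω, ∀ i j, |g₂ x i j - G₂ i j| ≤ 1 / ((m : ℝ) + 1)) ∧
      ∃ A₁ A₂ : Cn n N, SmU A₁ ∧ SmU A₂ ∧ C0 Ω (1 / ((m : ℝ) + 1)) A₁ ∧
      C0 Ω (1 / ((m : ℝ) + 1)) A₂ ∧ SDU Ω g₁ A₁ g₂ A₂ ∧ ∃ i j, η < |G₁ i j - G₂ i j| := by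
    intro m
    obtain ⟨G₁, G₂, c₁, c₂, g₁, g₂, s₁, s₂, p₁, p₂, n₁, n₂, A₁, A₂, a₁, a₂, b₁, b₂, hS, hij⟩ :=
      hcon (1 / ((m : ℝ) + 1)) (by positivity)
    exact ⟨G₁, G₂, c₁, c₂, g₁, g₂, s₁, s₂, p₁, p₂, n₁, n₂, A₁, A₂, a₁, a₂, b₁, b₂, hS, hij⟩
  choose G₁ G₂ c₁ c₂ g₁ g₂ s₁ s₂ p₁ p₂ n₁ n₂ A₁ A₂ a₁ a₂ b₁ b₂ hSD hij using hm
  -- compactness
  have hK : IsCompact (Set.pi univ fun _ : Fin n => Set.pi univ fun _ : Fin n =>
      Set.Icc (-B) B) := isCompact_univ_pi fun _ => isCompact_univ_pi fun _ => isCompact_Icc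
  have hmem : ∀ m, ((fun i j => G₁ m i j : Fin n → Fin n → ℝ),
      (fun i j => G₂ m i j : Fin n → Fin n → ℝ)) ∈
      (Set.pi univ fun _ : Fin n => Set.pi univ fun _ : Fin n => Set.Icc (-B) B) ×ˢ
      (Set.pi univ fun _ : Fin n => Set.pi univ fun _ : Fin n => Set.Icc (-B) B) := fun m =>
    ⟨fun i _ j _ => abs_le.1 ((c₁ m).2.1 i j), fun i _ j _ => abs_le.1 ((c₂ m).2.1 i j)⟩
  obtain ⟨⟨H₁, H₂⟩, _, φ, hφ, hlim⟩ := (hK.prod hK).tendsto_subseq hmem
  have hl₁ : ∀ i j, Tendsto (fun m => G₁ (φ m) i j) atTop (𝓝 (H₁ i j)) := fun i j =>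
    tendsto_pi_nhds.1 (tendsto_pi_nhds.1 ((continuous_fst.tendsto _).comp hlim) i) j
  have hl₂ : ∀ i j, Tendsto (fun m => G₂ (φ m) i j) atTop (𝓝 (H₂ i j)) := fun i j =>
    tendsto_pi_nhds.1 (tendsto_pi_nhds.1 ((continuous_snd.tendsto _).comp hlim) i) j
  have hP₁ : (Matrix.of H₁).PosDef := CoG_lim169 hB (fun m => c₁ (φ m)) hl₁
  have hP₂ : (Matrix.of H₂).PosDef := CoG_lim169 hB (fun m => c₂ (φ m)) hl₂
  have h1m : Tendsto (fun m : ℕ => 1 / ((φ m : ℝ) + 1)) atTop (𝓝 0) :=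
    tendsto_one_div_add_atTop_nhds_zero_nat.comp hφ.tendsto_atTop
  -- the metrics are near the limits
  have hnr : ∀ (r : ℝ), 0 < r → ∀ (G : ℕ → Matrix (Fin n) (Fin n) ℝ) (g : ℕ → MF n)
      (H : Fin n → Fin n → ℝ), (∀ m, ∀ x ∈ Ω, ∀ i j, |g m x i j - G m i j| ≤ 1 / ((m : ℝ) + 1)) →
      (∀ i j, Tendsto (fun m => G (φ m) i j) atTop (𝓝 (H i j))) →
      ∀ᶠ m in atTop, ∀ x ∈ Ω, ∀ i j, |g (φ m) x i j - Matrix.of H i j| < r := by
    intro r hr G g H hg hl
    have e1 : ∀ᶠ m in atTop, 1 / ((φ m : ℝ) + 1) < r / 2 := h1m.eventually_lt_const (half_pos hr)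
    have e2 : ∀ᶠ m in atTop, ∀ i j, |G (φ m) i j - H i j| < r / 2 := by
      refine eventually_all.2 fun i => eventually_all.2 fun j => ?_
      have := (Metric.tendsto_nhds.1 (hl i j)) (r / 2) (half_pos hr)
      filter_upwards [this] with m hm
      rwa [Real.dist_eq] at hm
    filter_upwards [e1, e2] with m h1 h2 x hx i j
    have h3 := hg (φ m) x hx i j
    have h4 := h2 i j
    rw [Matrix.of_apply]
    calc |g (φ m) x i j - H i j| = |(g (φ m) x i j - G (φ m) i j) + (G (φ m) i j - H i j)| := by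
          ring_nf
      _ ≤ |g (φ m) x i j - G (φ m) i j| + |G (φ m) i j - H i j| := abs_add_le _ _
      _ < r := by linarith
  have hcn : ∀ (r : ℝ), 0 < r → ∀ A : ℕ → Cn n N,
      (∀ m : ℕ, C0 Ω (1 / ((m : ℝ) + 1)) (A m)) →
      ∀ᶠ m in atTop, ∀ x ∈ Ω, ∀ i a b, ‖A (φ m) i x a b‖ < r := by
    intro r hr A hA
    filter_upwards [h1m.eventually_lt_const hr] with m h1 x hx i a b
    exact (hA (φ m) x hx i a b).trans_lt h1
  -- the energies of the linear functions agree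
  have hvol : 0 < volume.real Ω := by
    rw [measureReal_def]
    exact ENNReal.toReal_pos (hO.measure_pos volume hne).ne' hb.measure_lt_top.ne
  set S₁ := √(Matrix.of H₁).det • (Matrix.of H₁)⁻¹ with hS₁
  set S₂ := √(Matrix.of H₂).det • (Matrix.of H₂)⁻¹ with hS₂
  have hq : ∀ ξ : V n, qf169 S₁ ξ = qf169 S₂ ξ := by
    intro ξ
    have hle : ∀ θ > 0, |volume.real Ω * qf169 S₁ ξ - volume.real Ω * qf169 S₂ ξ| ≤ θ := by
      intro θ hθ
      obtain ⟨r₁, hr₁, h₁⟩ := en_limJ hO hb j₀ l₀ hP₁ ξ (half_pos hθ)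
      obtain ⟨r₂, hr₂, h₂⟩ := en_limJ hO hb j₀ l₀ hP₂ ξ (half_pos hθ)
      obtain ⟨m, ⟨hm₁, hm₂⟩, hm₃, hm₄⟩ := (((hnr r₁ hr₁ G₁ g₁ H₁ n₁ hl₁).and
        (hnr r₂ hr₂ G₂ g₂ H₂ n₂ hl₂)).and ((hcn r₁ hr₁ A₁ b₁).and (hcn r₂ hr₂ A₂ b₂))).exists
      obtain ⟨u, v, u', v', hu, hv, hu', hv', he⟩ :=
        hSD (φ m) (fv ξ l₀) (fv ξ l₀) (fv_sm ξ l₀) (fv_sm ξ l₀)
      have k₁ := h₁ (g₁ (φ m)) (s₁ _) (p₁ _) hm₁ (A₁ (φ m)) (a₁ _) hm₃ u v hu hv
      have k₂ := h₂ (g₂ (φ m)) (s₂ _) (p₂ _) hm₂ (A₂ (φ m)) (a₂ _) hm₄ u' v' hu' hv'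
      rw [← he] at k₂
      rw [abs_sub_comm] at k₁
      have := abs_sub_le (volume.real Ω * qf169 S₁ ξ) (en Ω (g₁ (φ m)) (A₁ (φ m)) u v).re
        (volume.real Ω * qf169 S₂ ξ)
      linarith
    have h0 : |volume.real Ω * qf169 S₁ ξ - volume.real Ω * qf169 S₂ ξ| ≤ 0 :=
      le_of_forall_pos_le_add fun θ hθ => by rw [zero_add]; exact hle θ hθ
    have h3 := sub_eq_zero.1 (abs_nonpos_iff.1 h0)
    exact mul_left_cancel₀ hvol.ne' h3
  have hSS : S₁ = S₂ := qf_inj169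
    (symm_of_posDef169 (hP₁.inv.smul (Real.sqrt_pos.2 hP₁.det_pos)))
    (symm_of_posDef169 (hP₂.inv.smul (Real.sqrt_pos.2 hP₂.det_pos))) hq
  have hHH : Matrix.of H₁ = Matrix.of H₂ := Vale.Agent.P088.HY.H794.sg_inj794 hn hP₁ hP₂ hSS
  -- contradiction
  have hlast : ∀ᶠ m in atTop, ∀ i j, |G₁ (φ m) i j - G₂ (φ m) i j| < η := by
    refine eventually_all.2 fun i => eventually_all.2 fun j => ?_
    have h1 := (hl₁ i j).sub (hl₂ i j)
    have h2 : H₁ i j - H₂ i j = 0 := by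
      have := congrFun (congrFun hHH i) j
      simp only [Matrix.of_apply] at this
      rw [this, sub_self]
    rw [h2] at h1
    have := (Metric.tendsto_nhds.1 h1) η hη
    filter_upwards [this] with m hm
    rwa [Real.dist_eq, sub_zero] at hm
  obtain ⟨m, hm⟩ := hlast.exists
  obtain ⟨i, j, h⟩ := hij (φ m)
  exact absurd h (not_lt.2 (hm i j).le)

end Vale.Agent.P088.PJ.Bd.H932
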